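import Vale.Agent.P183.R2.H668.KW.Spec

set_option autoImplicit false
set_option linter.all false

/-! Row C: lattice orders are coded by graphs without four-cycles. -/

namespace Vale.Agent.P183.R2.H891

open Vale.Agent.P183.R2.H668.KW

section gr

variable {α : Type} [Lattice α]

/-- The adjacency of the cover graph. -/
def adj (u v : α ⊕ α) : Prop :=
  (∃ x y, u = .inl x ∧ v = .inr y ∧ x ⋖ y) ∨ ∃ x y, v = .inl x ∧ u = .inr y ∧ x ⋖ y

/-- The cover graph. -/
def gr (α : Type) [Lattice α] : SimpleGraph (α ⊕ α) where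
  Adj := adj
  symm := ⟨fun u v h => Or.symm h⟩
  loopless := ⟨by
    rintro u (⟨x, y, h1, h2, -⟩ | ⟨x, y, h1, h2, -⟩)
    · rw [h1] at h2
      exact absurd h2 (by simp)
    · rw [h1] at h2
      exact absurd h2 (by simp)⟩

theorem gr_lr (x y : α) : (gr α).Adj (.inl x) (.inr y) ↔ x ⋖ y := by
  show adj _ _ ↔ _
  simp [adj]

theorem gr_rl (x y : α) : (gr α).Adj (.inr y) (.inl x) ↔ x ⋖ y := by
  show adj _ _ ↔ _
  simp [adj]

theorem gr_ll (x y : α) : ¬ (gr α).Adj (.inl x) (.inl y) := by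
  show ¬ adj _ _
  simp [adj]

theorem gr_rr (x y : α) : ¬ (gr α).Adj (.inr x) (.inr y) := by
  show ¬ adj _ _
  simp [adj]

theorem sup_eq_of {a b c : α} (hab : a ≠ b) (h1 : a ⋖ c) (h2 : b ⋖ c) : a ⊔ b = c := by
  have h3 : a < a ⊔ b := by
    refine lt_of_le_of_ne le_sup_left fun h => ?_
    have h4 : b ≤ a := by
      rw [h]
      exact le_sup_right
    exact h2.2 (lt_of_le_of_ne h4 hab.symm) h1.lt
  have h4 : a ⊔ b ≤ c := sup_le h1.le h2.le
  by_contra h5
  exact h1.2 h3 (lt_of_le_of_ne h4 h5)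

theorem inf_eq_of {a c d : α} (hcd : c ≠ d) (h1 : a ⋖ c) (h2 : a ⋖ d) : c ⊓ d = a := by
  have h3 : c ⊓ d < c := by
    refine lt_of_le_of_ne inf_le_left fun h => ?_
    have h4 : c ≤ d := by
      rw [← h]
      exact inf_le_right
    exact h2.2 h1.lt (lt_of_le_of_ne h4 hcd)
  have h4 : a ≤ c ⊓ d := le_inf h1.le h2.le
  by_contra h5
  exact h1.2 (lt_of_le_of_ne h4 (Ne.symm h5)) h3

theorem c4free : C4Free (gr α) := by
  intro u v x y huv h1 h2 h3 h4
  rcases u with a | c
  · rcases x with x | x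
    · exact absurd h1 (gr_ll _ _)
    rcases y with y | y
    · exact absurd h3 (gr_ll _ _)
    rcases v with b | b
    · rw [gr_lr] at h1 h2 h3 h4
      have hab : a ≠ b := fun h => huv (by rw [h])
      rw [← sup_eq_of hab h1 h2, sup_eq_of hab h3 h4]
    · exact absurd h2 (gr_rr _ _)
  · rcases x with x | x
    · rcases y with y | y
      · rcases v with b | b
        · exact absurd h2 (gr_ll _ _)
        · rw [gr_rl] at h1 h2 h3 h4
          have hcd : c ≠ b := fun h => huv (by rw [h])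
          rw [← inf_eq_of hcd h1 h2, inf_eq_of hcd h3 h4]
      · exact absurd h3 (gr_rr _ _)
    · exact absurd h1 (gr_rr _ _)

theorem le_iff_gr [Finite α] (x y : α) : x ≤ y ↔
    Relation.ReflTransGen (fun a b : α => (gr α).Adj (.inl a) (.inr b)) x y := by
  classical
  haveI := Fintype.ofFinite α
  letI : LocallyFiniteOrder α := Fintype.toLocallyFiniteOrder
  rw [le_iff_reflTransGen_covBy]
  simp only [gr_lr]

end gr

theorem le_of_gr_eq {α : Type} [Finite α] (A B : Lattice α) (h : @gr α A = @gr α B) (x y : α) :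
    A.le x y ↔ B.le x y := by
  have h1 := @le_iff_gr α A _ x y
  have h2 := @le_iff_gr α B _ x y
  rw [h] at h1
  exact h1.trans h2.symm

theorem rowC : StC := by
  intro n κ _ Λ hΛ
  have h1 : ∀ i, @gr (Fin n) (Λ i) ∈ {G : SimpleGraph (Fin n ⊕ Fin n) | C4Free G} := fun i =>
    @c4free (Fin n) (Λ i)
  rw [← Nat.card_coe_set_eq]
  refine Nat.card_le_card_of_injective (fun i => (⟨@gr (Fin n) (Λ i), h1 i⟩ :
    {G : SimpleGraph (Fin n ⊕ Fin n) | C4Free G})) fun i j h => ?_
  exact hΛ i j fun x y => le_of_gr_eq (Λ i) (Λ j) (congrArg Subtype.val h) x y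

end Vale.Agent.P183.R2.H891
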